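import Mathlib
import Vale.Agent.Lib.P309.B.Main

/-!
# P309: three bounds for the least horizon, in one model
-/

open MeasureTheory ProbabilityTheory
open scoped ENNReal RealInnerProductSpace
open Vale.Agent.Results.P309.MemoryThreshold Vale.Agent.Lib.P309

namespace Vale.Agent.Results.P309.A_ThreeBounds

/-- For `d ≥ 2` and `0 < ε < π/2`, with `λ = log₂(1/sin ε)`:
1. (memory threshold) a learner with at most `2^M` states that succeeds at accuracy `ε`, with any
   horizon, has `M ≥ (d-1) λ - d/2 - 1`;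
2. (sample threshold) a learner with measurable rules that succeeds with horizon `T`, with any
   number of states, has `T ≥ d - (d/2+2)/λ`;
3. (upper bound) if `M ≥ d log₂(6 d √d / sin ε + 2)`, there is a deterministic learner with measurable
   rules and at most `2^M` states which succeeds with horizon `⌈2 d log (24 / sin² ε)⌉`. -/
theorem result (d : ℕ) (hd : 2 ≤ d) (ε : ℝ) (h0 : 0 < ε) (h1 : ε < Real.pi / 2) :
    (∀ (M T : ℕ) (L : Learner d), Fintype.card L.State ≤ 2 ^ M → L.Succeeds T ε →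
      ((d : ℝ) - 1) * Real.logb 2 (1 / Real.sin ε) - d / 2 - 1 ≤ M) ∧
    (∀ (T : ℕ) (L : Learner d), S.IsMeas L → L.Succeeds T ε →
      (d : ℝ) - ((d : ℝ) / 2 + 2) / Real.logb 2 (1 / Real.sin ε) ≤ T) ∧
    (∀ M : ℕ, (d : ℝ) * Real.logb 2 (6 * (d : ℝ) * Real.sqrt d / Real.sin ε + 2) ≤ M →
      ∃ L : Learner d, S.IsMeas L ∧ Subsingleton L.Seed ∧ Fintype.card L.State ≤ 2 ^ M ∧
        L.Succeeds ⌈2 * (d : ℝ) * Real.log (24 / Real.sin ε ^ 2)⌉₊ ε) := by
  have hc : 0 < Real.sin ε := Real.sin_pos_of_pos_of_lt_pi h0 (by linarith [Real.pi_pos])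
  have hlt : Real.sin ε < 1 := by
    have h2 := Real.sin_lt_sin_of_lt_of_le_pi_div_two (by linarith [Real.pi_pos]) le_rfl h1
    rwa [Real.sin_pi_div_two] at h2
  refine ⟨fun M T L hM hs => (MemoryThreshold.result d M T hd ε h0 h1.le L hM hs).2,
    fun T L hL hs => B.sample_log (by omega) h0 h1.le hlt L hL T hs, fun M hM => ?_⟩
  obtain ⟨e0⟩ : Nonempty (Sph d) := by
    refine ⟨⟨EuclideanSpace.single ⟨0, by omega⟩ 1, ?_⟩⟩
    simp
  refine ⟨B.kLearner (K.gridH d ε) d (K.gridG d ε) e0, B.isMeas_kLearner _ _ _ _,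
    (inferInstance : Subsingleton Unit), ?_, B.succeeds_kLearner d (by omega) ε h0 h1.le e0⟩
  have hcard := B.card_kLearner d ε hc e0
  set X : ℝ := 6 * (d : ℝ) * Real.sqrt d / Real.sin ε + 2 with hX
  have hX0 : 0 < X := by rw [hX]; positivity
  have h3 : X ^ d ≤ (2 : ℝ) ^ M := by
    have e1 : X = (2 : ℝ) ^ Real.logb 2 X := (Real.rpow_logb (by norm_num) (by norm_num) hX0).symm
    calc X ^ d = ((2 : ℝ) ^ Real.logb 2 X) ^ d := by rw [← e1]
      _ = (2 : ℝ) ^ (Real.logb 2 X * d) := by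
          rw [Real.rpow_mul (by norm_num), Real.rpow_natCast]
      _ ≤ (2 : ℝ) ^ (M : ℝ) := by
          apply Real.rpow_le_rpow_of_exponent_le (by norm_num)
          linarith
      _ = (2 : ℝ) ^ M := Real.rpow_natCast _ _
  exact_mod_cast hcard.trans h3

end Vale.Agent.Results.P309.A_ThreeBounds
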