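import Mathlib
import Vale.Agent.Lib.P309.Cap

/-!
# P309: below `(d-1) log₂(1/sin ε) - d/2 - 1` bits no learner succeeds, at any horizon
-/

open MeasureTheory ProbabilityTheory Metric Set Module
open scoped ENNReal RealInnerProductSpace

namespace Vale.Agent.Results.P309.MemoryThreshold

/-- `ℝ^d` with the Euclidean norm. -/
abbrev E (d : ℕ) := EuclideanSpace ℝ (Fin d)

/-- The unit sphere `S^{d-1}`. -/
abbrev Sph (d : ℕ) := Metric.sphere (0 : E d) 1

/-- The uniform probability measure on `S^{d-1}`: Mathlib's surface measure `volume.toSphere`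
divided by its total mass. -/
noncomputable def unif (d : ℕ) : Measure (Sph d) :=
  ((volume : Measure (E d)).toSphere univ)⁻¹ • (volume : Measure (E d)).toSphere

/-- A one-pass learner.  `State` is the finite set of persistent states.  All the randomness of the
learner is a seed `w : Seed` drawn from the probability measure `seedLaw`; the initial state, every
transition, every stopping decision and the output rule are functions of the seed and of what the
problem allows them to see (index, current state, current pair `(x, y)`; the output rule sees only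
the final state). -/
structure Learner (d : ℕ) where
  State : Type
  [fintypeState : Fintype State]
  Seed : Type
  [measurableSpaceSeed : MeasurableSpace Seed]
  seedLaw : Measure Seed
  [isProb : IsProbabilityMeasure seedLaw]
  init : Seed → State
  step : ℕ → State → E d → ℝ → Seed → State
  halt : ℕ → State → E d → ℝ → Seed → Bool
  out : State → Seed → Sph d
  measurable_out : ∀ m, Measurable (out m)

attribute [instance] Learner.fintypeState Learner.measurableSpaceSeed Learner.isProb

variable {d : ℕ}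

/-- `(state, has the learner stopped?)` after the first `t` pairs `(x_i, ⟪x_i, s⟫)`, `i < t`, of the
stream; once stopped, the state is frozen. -/
noncomputable def Learner.run (L : Learner d) (s : Sph d) (x : ℕ → E d) (w : L.Seed) :
    ℕ → L.State × Bool
  | 0 => (L.init w, false)
  | t + 1 =>
    if (L.run s x w t).2 then L.run s x w t
    else (L.step t (L.run s x w t).1 (x t) ⟪x t, (s : E d)⟫ w,
          L.halt t (L.run s x w t).1 (x t) ⟪x t, (s : E d)⟫ w)

/-- The output of the learner with horizon `T`. -/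
noncomputable def Learner.output (L : Learner d) (T : ℕ) (s : Sph d) (x : ℕ → E d) (w : L.Seed) :
    Sph d :=
  L.out (L.run s x w T).1 w

/-- Joint law of (signal, rows, seed): independent, the signal uniform on the sphere, the rows
i.i.d. standard Gaussian in `ℝ^d`. -/
noncomputable def Learner.law (L : Learner d) : Measure (Sph d × (ℕ → E d) × L.Seed) :=
  (unif d).prod ((Measure.infinitePi fun _ : ℕ => stdGaussian (E d)).prod L.seedLaw)

/-- The learner with horizon `T` succeeds at accuracy `ε`. -/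
def Learner.Succeeds (L : Learner d) (T : ℕ) (ε : ℝ) : Prop :=
  (2 / 3 : ℝ≥0∞) ≤ L.law {ω | Real.arccos ⟪(L.output T ω.1 ω.2.1 ω.2.2 : E d), (ω.1 : E d)⟫ ≤ ε}

theorem success_le (hd : 1 ≤ d) {ε : ℝ} (h0 : 0 < ε) (h1 : ε ≤ Real.pi / 2) (L : Learner d)
    (T : ℕ) :
    L.law {ω | Real.arccos ⟪(L.output T ω.1 ω.2.1 ω.2.2 : E d), (ω.1 : E d)⟫ ≤ ε}
      ≤ Fintype.card L.State * ENNReal.ofReal (Real.sqrt 2 ^ d * Real.sin ε ^ (d - 1)) := by
  set B := ENNReal.ofReal (Real.sqrt 2 ^ d * Real.sin ε ^ (d - 1)) with hB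
  have hsub : {ω : Sph d × (ℕ → E d) × L.Seed |
        Real.arccos ⟪(L.output T ω.1 ω.2.1 ω.2.2 : E d), (ω.1 : E d)⟫ ≤ ε}
      ⊆ ⋃ m : L.State, {ω | Real.arccos ⟪(L.out m ω.2.2 : E d), (ω.1 : E d)⟫ ≤ ε} := by
    intro ω hω
    exact mem_iUnion.2 ⟨(L.run ω.1 ω.2.1 ω.2.2 T).1, hω⟩
  have hone : ∀ m : L.State,
      L.law {ω | Real.arccos ⟪(L.out m ω.2.2 : E d), (ω.1 : E d)⟫ ≤ ε} ≤ B := by
    intro m
    have hmeas : MeasurableSet {ω : Sph d × (ℕ → E d) × L.Seed |
        Real.arccos ⟪(L.out m ω.2.2 : E d), (ω.1 : E d)⟫ ≤ ε} := by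
      apply measurableSet_le _ measurable_const
      apply Real.measurable_arccos.comp
      apply Measurable.inner
      · exact measurable_subtype_coe.comp ((L.measurable_out m).comp (measurable_snd.comp measurable_snd))
      · exact measurable_subtype_coe.comp measurable_fst
    have : SFinite (unif d) := by unfold unif; infer_instance
    rw [Learner.law, Measure.prod_apply_symm hmeas]
    calc ∫⁻ y, (unif d) ((fun x => (x, y)) ⁻¹' {ω : Sph d × (ℕ → E d) × L.Seed |
            Real.arccos ⟪(L.out m ω.2.2 : E d), (ω.1 : E d)⟫ ≤ ε})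
            ∂((Measure.infinitePi fun _ : ℕ => stdGaussian (E d)).prod L.seedLaw)
        ≤ ∫⁻ _, B ∂((Measure.infinitePi fun _ : ℕ => stdGaussian (E d)).prod L.seedLaw) := by
          apply lintegral_mono
          intro y
          have := Vale.Agent.Lib.P309.cap_measure_le (volume : Measure (E d)) (by simpa using hd)
            (L.out m y.2 : E d) (by simp) h0 h1
          simpa [unif, hB] using this
      _ = B := by simp
  calc L.law {ω | Real.arccos ⟪(L.output T ω.1 ω.2.1 ω.2.2 : E d), (ω.1 : E d)⟫ ≤ ε}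
      ≤ L.law (⋃ m : L.State, {ω | Real.arccos ⟪(L.out m ω.2.2 : E d), (ω.1 : E d)⟫ ≤ ε}) :=
        measure_mono hsub
    _ ≤ ∑ m : L.State, L.law {ω | Real.arccos ⟪(L.out m ω.2.2 : E d), (ω.1 : E d)⟫ ≤ ε} :=
        measure_iUnion_fintype_le _ _
    _ ≤ ∑ _m : L.State, B := Finset.sum_le_sum fun m _ => hone m
    _ = Fintype.card L.State * B := by simp

/-- **Memory threshold.**  If a one-pass learner with at most `2^M` states succeeds at accuracy
`ε ∈ (0, π/2]` with some horizon `T` (any `T`), then `2/3 ≤ 2^M (√2)^d (sin ε)^(d-1)`, and hence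
`M ≥ (d-1) log₂(1/sin ε) - d/2 - 1`. -/
theorem result (d M T : ℕ) (hd : 2 ≤ d) (ε : ℝ) (h0 : 0 < ε) (h1 : ε ≤ Real.pi / 2)
    (L : Learner d) (hM : Fintype.card L.State ≤ 2 ^ M) (hs : L.Succeeds T ε) :
    (2 / 3 : ℝ) ≤ 2 ^ M * (Real.sqrt 2 ^ d * Real.sin ε ^ (d - 1)) ∧
      ((d : ℝ) - 1) * Real.logb 2 (1 / Real.sin ε) - d / 2 - 1 ≤ M := by
  have hc : 0 < Real.sin ε := Real.sin_pos_of_pos_of_lt_pi h0 (by linarith [Real.pi_pos])
  have key : (2 / 3 : ℝ) ≤ 2 ^ M * (Real.sqrt 2 ^ d * Real.sin ε ^ (d - 1)) := by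
    have h := hs.trans (success_le (by omega) h0 h1 L T)
    have h2 : (Fintype.card L.State : ℝ≥0∞) * ENNReal.ofReal (Real.sqrt 2 ^ d * Real.sin ε ^ (d - 1))
        ≤ ENNReal.ofReal (2 ^ M * (Real.sqrt 2 ^ d * Real.sin ε ^ (d - 1))) := by
      rw [ENNReal.ofReal_mul (p := (2 : ℝ) ^ M) (by positivity)]
      have h5 : (Fintype.card L.State : ℝ≥0∞) ≤ ENNReal.ofReal (2 ^ M) := by
        rw [ENNReal.ofReal_pow (by norm_num)]
        simp only [ENNReal.ofReal_ofNat]
        exact_mod_cast hM
      exact mul_le_mul' h5 le_rfl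
    have h3 := h.trans h2
    have h4 : (2 / 3 : ℝ≥0∞) = ENNReal.ofReal (2 / 3) := by
      rw [ENNReal.ofReal_div_of_pos (by norm_num)]; simp
    rw [h4, ENNReal.ofReal_le_ofReal_iff (by positivity)] at h3
    exact h3
  refine ⟨key, ?_⟩
  have hlog := Real.logb_le_logb_of_le (b := 2) (by norm_num) (by norm_num) key
  have e1 : Real.logb 2 (2 ^ M * (Real.sqrt 2 ^ d * Real.sin ε ^ (d - 1)))
      = M + ((d : ℝ) / 2 + ((d : ℝ) - 1) * Real.logb 2 (Real.sin ε)) := by
    rw [Real.logb_mul (by positivity) (by positivity), Real.logb_mul (by positivity) (by positivity),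
      Real.logb_pow, Real.logb_pow, Real.logb_pow, Real.logb_self_eq_one (by norm_num)]
    have hsq : Real.logb 2 (Real.sqrt 2) = 1 / 2 := by
      rw [Real.sqrt_eq_rpow, Real.logb_rpow (by norm_num) (by norm_num)]
    rw [hsq, Nat.cast_sub (by omega)]
    push_cast
    ring
  have e2 : (-1 : ℝ) ≤ Real.logb 2 (2 / 3) := by
    rw [Real.le_logb_iff_rpow_le (by norm_num) (by norm_num)]
    rw [Real.rpow_neg_one]; norm_num
  have e3 : Real.logb 2 (1 / Real.sin ε) = - Real.logb 2 (Real.sin ε) := by
    rw [one_div, Real.logb_inv]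
  rw [e1] at hlog
  rw [e3]
  linarith

end Vale.Agent.Results.P309.MemoryThreshold
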