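import Mathlib
import Vale.Agent.Lib.P309.K.Induct
import Vale.Agent.Lib.P309.K.Angle
import Vale.Agent.Lib.P309.K.Unif
import Vale.Agent.Lib.P309.K.Scalar

/-!
# P309: a bounded-memory learner with horizon `O(d log (1/ε))`
-/

open MeasureTheory ProbabilityTheory
open scoped ENNReal RealInnerProductSpace
open Vale.Agent.Lib.P309.K

namespace Vale.Agent.Results.P309.QuantizedKaczmarz

/-- **Upper bound for the least horizon.**  For `d ≥ 1` and `0 < ε ≤ π/2` put
`G = ⌈6 d √d / sin ε⌉` and `T = ⌈2 d log (24 / sin² ε)⌉`.  There is a deterministic one-pass learner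
whose state set is `Fin d → Fin (G + 1)` (so it has `(G + 1)^d ≤ (6 d √d / sin ε + 2)^d` states),
with a Borel measurable, time-independent transition rule, which after exactly `T` samples outputs a
point within angle `ε` of the signal with probability at least `2/3`. -/
theorem result (d : ℕ) (hd : 1 ≤ d) (ε : ℝ) (h0 : 0 < ε) (h1 : ε ≤ Real.pi / 2) :
    ∃ (step : (Fin d → Fin (⌈6 * (d : ℝ) * Real.sqrt d / Real.sin ε⌉₊ + 1)) → E d → ℝ →
          (Fin d → Fin (⌈6 * (d : ℝ) * Real.sqrt d / Real.sin ε⌉₊ + 1)))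
      (z0 : Fin d → Fin (⌈6 * (d : ℝ) * Real.sqrt d / Real.sin ε⌉₊ + 1))
      (out : (Fin d → Fin (⌈6 * (d : ℝ) * Real.sqrt d / Real.sin ε⌉₊ + 1)) → Sph d),
      (∀ z, Measurable (fun p : E d × ℝ => step z p.1 p.2)) ∧
      ((Fintype.card (Fin d → Fin (⌈6 * (d : ℝ) * Real.sqrt d / Real.sin ε⌉₊ + 1)) : ℝ) ≤
        (6 * (d : ℝ) * Real.sqrt d / Real.sin ε + 2) ^ d) ∧
      (2 / 3 : ℝ≥0∞) ≤
        ((unif d).prod
          (Measure.pi fun _ : Fin ⌈2 * (d : ℝ) * Real.log (24 / Real.sin ε ^ 2)⌉₊ =>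
            stdGaussian (E d)))
          {ω | Real.arccos ⟪(out (runF step (ω.1 : E d)
            ⌈2 * (d : ℝ) * Real.log (24 / Real.sin ε ^ 2)⌉₊ z0 ω.2) : E d), (ω.1 : E d)⟫ ≤ ε} := by
  have hdr : (1 : ℝ) ≤ d := by exact_mod_cast hd
  set δ : ℝ := Real.sin ε with hδ
  have hδ0 : 0 < δ := Real.sin_pos_of_pos_of_lt_pi h0 (by linarith [Real.pi_pos])
  have hδ1 : δ ≤ 1 := Real.sin_le_one ε
  set G : ℕ := ⌈6 * (d : ℝ) * Real.sqrt d / δ⌉₊ with hGdef
  set T : ℕ := ⌈2 * (d : ℝ) * Real.log (24 / δ ^ 2)⌉₊ with hTdef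
  set h : ℝ := δ / (3 * d * Real.sqrt d) with hh
  have hsq : 0 < Real.sqrt d := Real.sqrt_pos.2 (by linarith)
  have hh0 : 0 < h := by rw [hh]; positivity
  have hG : 2 ≤ (G : ℝ) * h := grid_ok d hd δ hδ0
  have hT : 2 * (d : ℝ) * Real.log (24 / δ ^ 2) ≤ T := Nat.le_ceil _
  haveI : IsProbabilityMeasure (unif d) := isProbabilityMeasure_unif hd
  obtain ⟨e0⟩ : Nonempty (Sph d) := by
    refine ⟨⟨EuclideanSpace.single ⟨0, hd⟩ 1, ?_⟩⟩
    simp
  refine ⟨kstep h, kinit h d G, kout h e0, measurable_kstep h, ?_, ?_⟩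
  · rw [Fintype.card_fun, Fintype.card_fin, Fintype.card_fin]
    push_cast
    apply pow_le_pow_left₀ (by positivity)
    have : (G : ℝ) < 6 * (d : ℝ) * Real.sqrt d / δ + 1 := Nat.ceil_lt_add_one (by positivity)
    linarith
  · -- measurability
    have hrun : Measurable (fun ω : Sph d × (Fin T → E d) =>
        runF (kstep h) (ω.1 : E d) T (kinit h d G) ω.2) :=
      (measurable_runF (kstep h) (measurable_kstep h) T (kinit h d G)).comp
        ((measurable_subtype_coe.comp measurable_fst).prodMk measurable_snd)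
    have hS : MeasurableSet {ω : Sph d × (Fin T → E d) |
        Real.arccos ⟪(kout h e0 (runF (kstep h) (ω.1 : E d) T (kinit h d G) ω.2) : E d),
          (ω.1 : E d)⟫ ≤ ε} := by
      apply measurableSet_le _ measurable_const
      apply Real.measurable_arccos.comp
      apply Measurable.inner
      · exact measurable_subtype_coe.comp ((Measurable.of_discrete (f := kout h e0)).comp hrun)
      · exact measurable_subtype_coe.comp measurable_fst
    rw [Measure.prod_apply hS]
    have key : ∀ s : Sph d, (2 / 3 : ℝ≥0∞) ≤ (Measure.pi fun _ : Fin T => stdGaussian (E d))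
        (Prod.mk s ⁻¹' {ω : Sph d × (Fin T → E d) |
          Real.arccos ⟪(kout h e0 (runF (kstep h) (ω.1 : E d) T (kinit h d G) ω.2) : E d),
            (ω.1 : E d)⟫ ≤ ε}) := by
      intro s
      have hs : ‖(s : E d)‖ = 1 := by simpa using s.2
      set Bad : Set (Fin T → E d) :=
        {x | δ ^ 2 ≤ ‖vec h (runF (kstep h) (s : E d) T (kinit h d G) x) - s‖ ^ 2} with hBad
      have hBadm : MeasurableSet Bad := by
        have hm : Measurable (fun x : Fin T → E d => runF (kstep h) (s : E d) T (kinit h d G) x) :=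
          (measurable_runF (kstep h) (measurable_kstep h) T (kinit h d G)).comp
            (measurable_const.prodMk measurable_id)
        exact hm (MeasurableSet.of_discrete (s := {m : St d G | δ ^ 2 ≤ ‖vec h m - s‖ ^ 2}))
      have hinit : ‖vec h (kinit h d G) - s‖ ^ 2 ≤ 4 := by
        have h2 := norm_vec_round_sub_le (G := G) hh0 hG (0 : E d) (s : E d) hs
        have h3 : vec h (fun i => rnd h G ((0 : E d) i)) = vec h (kinit h d G) := rfl
        rw [h3, zero_sub, norm_neg, hs] at h2
        have h4 : h / 2 * Real.sqrt d ≤ 1 := by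
          have : h / 2 * Real.sqrt d = δ / (6 * d) := by
            rw [hh]; field_simp; ring
          rw [this, div_le_one (by positivity)]
          linarith
        have h5 : 0 ≤ ‖vec h (kinit h d G) - s‖ := norm_nonneg _
        nlinarith
      have hbad : (Measure.pi fun _ : Fin T => stdGaussian (E d)) Bad ≤ 1 / 3 := by
        refine (bad_le hd hh0 hG (s : E d) hs (δ ^ 2) (by positivity) T (kinit h d G)).trans ?_
        have := scalar_bound d hd δ hδ0 hδ1 T hT _ hinit
        calc ENNReal.ofReal _ ≤ ENNReal.ofReal (1 / 3) := ENNReal.ofReal_le_ofReal this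
          _ = 1 / 3 := by
            rw [ENNReal.ofReal_div_of_pos (by norm_num)]; simp
      have hsub : Badᶜ ⊆ Prod.mk s ⁻¹' {ω : Sph d × (Fin T → E d) |
          Real.arccos ⟪(kout h e0 (runF (kstep h) (ω.1 : E d) T (kinit h d G) ω.2) : E d),
            (ω.1 : E d)⟫ ≤ ε} := by
        intro x hx
        have hx' : ‖vec h (runF (kstep h) (s : E d) T (kinit h d G) x) - s‖ ^ 2 < δ ^ 2 := by
          simpa [hBad] using hx
        exact arccos_kout_le e0 _ (s : E d) hs h0 h1 hx'
      calc (2 / 3 : ℝ≥0∞) ≤ 1 - (Measure.pi fun _ : Fin T => stdGaussian (E d)) Bad := by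
            have h6 : (1 : ℝ≥0∞) - 1 / 3 ≤ 1 - (Measure.pi fun _ : Fin T => stdGaussian (E d)) Bad :=
              tsub_le_tsub_left hbad 1
            refine le_trans (le_of_eq ?_) h6
            rw [eq_comm, ENNReal.sub_eq_of_eq_add (by simp)]
            rw [ENNReal.div_add_div_same]
            norm_num
            rw [ENNReal.div_self (by norm_num) (by norm_num)]
        _ = (Measure.pi fun _ : Fin T => stdGaussian (E d)) Badᶜ := (prob_compl_eq_one_sub hBadm).symm
        _ ≤ _ := measure_mono hsub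
    calc (2 / 3 : ℝ≥0∞) = ∫⁻ _s : Sph d, (2 / 3 : ℝ≥0∞) ∂(unif d) := by simp
      _ ≤ _ := lintegral_mono key

end Vale.Agent.Results.P309.QuantizedKaczmarz
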