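import Mathlib
import Vale.Agent.Lib.P309.B.Main

/-!
# P309: fewer than about `d` samples never suffice, whatever the memory
-/

open MeasureTheory ProbabilityTheory
open scoped ENNReal RealInnerProductSpace
open Vale.Agent.Results.P309.MemoryThreshold Vale.Agent.Lib.P309

namespace Vale.Agent.Results.P309.SampleThreshold

/-- **Sample threshold.**  If a one-pass learner with measurable rules (any finite number of states)
succeeds at accuracy `ε ∈ (0, π/2]` with horizon `T`, then `1/3 ≤ (√2)^d (sin ε)^(d-T)`; hence, if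
`ε < π/2`, `T ≥ d - (d/2 + 2) / log₂(1/sin ε)`. -/
theorem result (d T : ℕ) (hd : 2 ≤ d) (ε : ℝ) (h0 : 0 < ε) (h1 : ε ≤ Real.pi / 2)
    (L : Learner d) (hL : S.IsMeas L) (hs : L.Succeeds T ε) :
    (1 / 3 : ℝ) ≤ Real.sqrt 2 ^ d * Real.sin ε ^ (d - T) ∧
      (Real.sin ε < 1 → (d : ℝ) - ((d : ℝ) / 2 + 2) / Real.logb 2 (1 / Real.sin ε) ≤ T) :=
  ⟨S.sample_bound (by omega) h0 h1 L hL T hs,
    fun hlt => B.sample_log (by omega) h0 h1 hlt L hL T hs⟩

end Vale.Agent.Results.P309.SampleThreshold
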